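import Mathlib

namespace Vale.Agent.P112

open MeasureTheory Set Filter Topology
open scoped Real ENNReal NNReal

lemma chord_lower {x y : ℝ} (h : |x - y| ≤ π) :
    (2 / π) * |x - y| ≤ ‖Complex.exp (x * Complex.I) - Complex.exp (y * Complex.I)‖ := by
  have h1 : Complex.exp (x * Complex.I) - Complex.exp (y * Complex.I)
      = Complex.exp (y * Complex.I) * (Complex.exp (Complex.I * ((x - y : ℝ) : ℂ)) - 1) := by
    rw [mul_sub, ← Complex.exp_add, mul_one]
    congr 2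
    push_cast
    ring
  rw [h1, norm_mul, Complex.norm_exp_ofReal_mul_I, one_mul, Complex.norm_exp_I_mul_ofReal_sub_one]
  rw [norm_mul, Real.norm_eq_abs, Real.norm_eq_abs, abs_two]
  have h2 : |Real.sin ((x - y) / 2)| = Real.sin (|x - y| / 2) := by
    rcases le_total 0 (x - y) with h0 | h0
    · rw [abs_of_nonneg h0, abs_of_nonneg]
      apply Real.sin_nonneg_of_nonneg_of_le_pi (by linarith)
      rw [abs_of_nonneg h0] at h; linarith [Real.pi_pos]
    · rw [abs_of_nonpos h0] at *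
      rw [abs_of_nonpos]
      · rw [neg_div, Real.sin_neg]
      · have : Real.sin (-(x - y) / 2) ≥ 0 := by
          apply Real.sin_nonneg_of_nonneg_of_le_pi (by linarith)
          linarith [Real.pi_pos]
        rw [neg_div, Real.sin_neg] at this
        linarith
  rw [h2]
  have h3 := Real.mul_le_sin (x := |x - y| / 2) (by positivity) (by linarith)
  linarith

lemma chord_upper (x y : ℝ) :
    ‖Complex.exp (x * Complex.I) - Complex.exp (y * Complex.I)‖ ≤ |x - y| := by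
  have h1 : Complex.exp (x * Complex.I) - Complex.exp (y * Complex.I)
      = Complex.exp (y * Complex.I) * (Complex.exp (Complex.I * ((x - y : ℝ) : ℂ)) - 1) := by
    rw [mul_sub, ← Complex.exp_add, mul_one]
    congr 2
    push_cast
    ring
  rw [h1, norm_mul, Complex.norm_exp_ofReal_mul_I, one_mul, Complex.norm_exp_I_mul_ofReal_sub_one]
  rw [norm_mul, Real.norm_eq_abs, Real.norm_eq_abs, abs_two]
  have := Real.abs_sin_le_abs (x := (x - y) / 2)
  rw [abs_div, abs_two] at this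
  linarith

lemma half_measure (u : ℝ → ℂ) (hu1 : ∀ τ, ‖u τ‖ = 1) {K : ℝ≥0}
    (hu : ∀ τ τ' : ℝ, ‖Complex.exp (τ * Complex.I) - Complex.exp (τ' * Complex.I)‖ ≤ K * ‖u τ - u τ'‖)
    (s : Set ℂ) (I : Set ℝ) (hI : ∀ x ∈ I, ∀ y ∈ I, |x - y| ≤ π) :
    volume (I ∩ u ⁻¹' s) ≤ ENNReal.ofReal (π / 2 * K) *
      volume (Ioc (-π) π ∩ (fun α : ℝ => Complex.exp (α * Complex.I)) ⁻¹' s) := by
  have hexp : ∀ τ, Complex.exp ((Complex.arg (u τ) : ℝ) * Complex.I) = u τ := by
    intro τ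
    have := Complex.norm_mul_exp_arg_mul_I (u τ)
    rw [hu1, Complex.ofReal_one, one_mul] at this
    exact this
  set φ : (↥I) → ℝ := fun τ => Complex.arg (u (τ : ℝ)) with hφ
  have hK' : (0:ℝ) ≤ π / 2 * K := by positivity
  have hanti : AntilipschitzWith (Real.toNNReal (π / 2 * K)) φ := by
    apply AntilipschitzWith.of_le_mul_dist
    intro x y
    rw [Real.coe_toNNReal _ hK', Subtype.dist_eq, Real.dist_eq, Real.dist_eq]
    have h1 := chord_lower (hI x x.2 y y.2)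
    have h2 := hu x y
    have h3 : ‖u x - u y‖ ≤ |φ x - φ y| := by
      have := chord_upper (φ x) (φ y)
      rw [hφ] at this
      simp only [hexp] at this
      exact this
    have h4 : (2 / π) * |(x : ℝ) - y| ≤ K * |φ x - φ y| :=
      h1.trans (h2.trans (mul_le_mul_of_nonneg_left h3 K.2))
    have hpi := Real.pi_pos
    calc |(x : ℝ) - y| = (π / 2) * ((2 / π) * |(x : ℝ) - y|) := by field_simp
      _ ≤ (π / 2) * (K * |φ x - φ y|) := by gcongr
      _ = π / 2 * K * |φ x - φ y| := by ring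
  have h5 := hanti.le_hausdorffMeasure_image (d := 1) zero_le_one ((fun x : ↥I => (x : ℝ)) ⁻¹' (u ⁻¹' s))
  have h6 : Measure.hausdorffMeasure 1 ((fun x : ↥I => (x : ℝ)) ⁻¹' (u ⁻¹' s)) = volume (I ∩ u ⁻¹' s) := by
    have := (isometry_subtype_coe (s := I)).hausdorffMeasure_image (d := 1) (Or.inl zero_le_one)
      ((fun x : ↥I => (x : ℝ)) ⁻¹' (u ⁻¹' s))
    rw [← this, hausdorffMeasure_real]
    congr 1
    ext x
    simp
  rw [h6] at h5
  refine h5.trans ?_
  rw [ENNReal.rpow_one]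
  have h7 : ((Real.toNNReal (π / 2 * K) : ℝ≥0) : ℝ≥0∞) = ENNReal.ofReal (π / 2 * K) := rfl
  rw [h7, hausdorffMeasure_real]
  gcongr
  rintro α ⟨x, hx, rfl⟩
  refine ⟨Complex.arg_mem_Ioc _, ?_⟩
  simp only [mem_preimage, hφ, hexp]
  exact hx

lemma full_measure (u : ℝ → ℂ) (hu1 : ∀ τ, ‖u τ‖ = 1) {K : ℝ≥0}
    (hu : ∀ τ τ' : ℝ, ‖Complex.exp (τ * Complex.I) - Complex.exp (τ' * Complex.I)‖ ≤ K * ‖u τ - u τ'‖)
    (s : Set ℂ) :
    volume (Ioc 0 (2 * π) ∩ u ⁻¹' s) ≤ ENNReal.ofReal (π * K) *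
      volume (Ioc (-π) π ∩ (fun α : ℝ => Complex.exp (α * Complex.I)) ⁻¹' s) := by
  have hpi := Real.pi_pos
  have hsplit : Ioc 0 (2 * π) ∩ u ⁻¹' s ⊆ (Ioc 0 π ∩ u ⁻¹' s) ∪ (Ioc π (2 * π) ∩ u ⁻¹' s) := by
    rintro x ⟨⟨h1, h2⟩, h3⟩
    rcases le_or_gt x π with h | h
    · left; exact ⟨⟨h1, h⟩, h3⟩
    · right; exact ⟨⟨h, h2⟩, h3⟩
  refine (measure_mono hsplit).trans ((measure_union_le _ _).trans ?_)
  have h1 := half_measure u hu1 hu s (Ioc 0 π) (by
    rintro x ⟨hx1, hx2⟩ y ⟨hy1, hy2⟩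
    rw [abs_le]; constructor <;> linarith)
  have h2 := half_measure u hu1 hu s (Ioc π (2 * π)) (by
    rintro x ⟨hx1, hx2⟩ y ⟨hy1, hy2⟩
    rw [abs_le]; constructor <;> linarith)
  refine (add_le_add h1 h2).trans (le_of_eq ?_)
  rw [← add_mul, ← ENNReal.ofReal_add (by positivity) (by positivity)]
  congr 2
  ring

lemma circle_lintegral (u : ℝ → ℂ) (hum : Measurable u) (hu1 : ∀ τ, ‖u τ‖ = 1) {K : ℝ≥0}
    (hu : ∀ τ τ' : ℝ, ‖Complex.exp (τ * Complex.I) - Complex.exp (τ' * Complex.I)‖ ≤ K * ‖u τ - u τ'‖)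
    (Φ : ℂ → ℝ≥0∞) (hΦ : Measurable Φ) :
    ∫⁻ τ in Ioc 0 (2 * π), Φ (u τ) ≤ ENNReal.ofReal (π * K) *
      ∫⁻ α in Ioc (-π) π, Φ (Complex.exp (α * Complex.I)) := by
  have hexpm : Measurable (fun α : ℝ => Complex.exp (α * Complex.I)) := by fun_prop
  have hle : (volume.restrict (Ioc 0 (2 * π))).map u ≤
      ENNReal.ofReal (π * K) • (volume.restrict (Ioc (-π) π)).map (fun α : ℝ => Complex.exp (α * Complex.I)) := by
    rw [Measure.le_iff]
    intro s hs
    rw [Measure.smul_apply, Measure.map_apply hum hs, Measure.map_apply hexpm hs,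
      Measure.restrict_apply (hum hs), Measure.restrict_apply (hexpm hs), smul_eq_mul,
      inter_comm, inter_comm (_ ⁻¹' s) (Ioc (-π) π)]
    exact full_measure u hu1 hu s
  rw [← lintegral_map hΦ hum, ← lintegral_map hΦ hexpm]
  have h := lintegral_mono' hle (le_refl Φ)
  rw [lintegral_smul_measure, smul_eq_mul] at h
  exact h

end Vale.Agent.P112
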