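import Mathlib

namespace Vale.Agent.P112

open MeasureTheory Filter Topology

noncomputable section

def truncHilbert (v : ℂ → ℂ) (a ε : ℝ) (f : ℂ → ℂ) (x : ℂ) : ℂ :=
  ∫ t in {t : ℝ | ε < |t| ∧ |t| < a}, f (x - (t : ℂ) * v x) / (t : ℂ)

def hilbert (v : ℂ → ℂ) (a : ℝ) (f : ℂ → ℂ) (x : ℂ) : ℂ :=
  limUnder (𝓝[>] (0 : ℝ)) (fun ε => truncHilbert v a ε f x)

def rot (c : ℂ) (τ : ℝ) (x : ℂ) : ℂ :=
  c + Complex.exp (τ * Complex.I) * (x - c)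

end

end Vale.Agent.P112
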