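import Vale.Agent.P112.Main

namespace Vale.Agent.P112

open MeasureTheory Set Filter Topology
open scoped Real SchwartzMap FourierTransform ContDiff ENNReal NNReal

noncomputable section

lemma mode_strong {v : ℂ → ℂ} (hv1 : ∀ x, ‖v x‖ = 1) (hv : LipschitzWith 1 v) (c : ℂ) {a ρ : ℝ}
    (ha : 0 < a) (hρ1 : ρ < 1) (f : 𝓢(ℂ, ℂ)) (m : ℤ)
    (hf : ∀ (τ : ℝ) (y : ℂ), f (rot c τ y) = Complex.exp (m * τ * Complex.I) * f y) :
    ∫⁻ x in Metric.ball c ρ, ‖hilbert v a f x‖ₑ ^ 2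
      ≤ ENNReal.ofReal (36 * π / (1 - ρ)) * ∫⁻ x, ‖f x‖ₑ ^ 2 := by
  have hpi := Real.pi_pos
  have hpos : 0 < 1 - ρ := by linarith
  have h := main_average hv1 hv c ha hρ1 f
  have hexp : ∀ τ : ℝ, ‖Complex.exp (m * τ * Complex.I)‖ = 1 := by
    intro τ
    rw [show (m * τ * Complex.I : ℂ) = ((m * τ : ℝ) : ℂ) * Complex.I by push_cast; ring]
    exact Complex.norm_exp_ofReal_mul_I _
  have hmod : ∀ (τ : ℝ) (x : ℂ), ‖hilbert v a (fun y => f (rot c τ y)) x‖ₑ = ‖hilbert v a f x‖ₑ := by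
    intro τ x
    have h1 : hilbert v a (fun y => f (rot c τ y)) x = Complex.exp (m * τ * Complex.I) * hilbert v a f x := by
      apply (tendsto_hilbert_rot v a f c τ x).limUnder_eq.trans
      have h2 := (tendsto_hilbert v a f x).const_mul (Complex.exp (m * τ * Complex.I))
      have h3 : Tendsto (fun ε => truncHilbert v a ε (fun y => f (rot c τ y)) x) (𝓝[>] 0)
          (𝓝 (Complex.exp (m * τ * Complex.I) * hilbert v a f x)) := by
        apply h2.congr
        intro ε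
        rw [truncHilbert, truncHilbert, ← integral_const_mul]
        congr 1
        ext t
        simp only [hf]
        ring
      exact tendsto_nhds_unique (tendsto_hilbert_rot v a f c τ x) h3
    rw [h1, enorm_mul]
    have : ‖Complex.exp (m * τ * Complex.I)‖ₑ = 1 := by
      rw [← ofReal_norm, hexp]; simp
    rw [this, one_mul]
  simp_rw [hmod] at h
  rw [setLIntegral_const, Real.volume_Ioc] at h
  have h2 : ENNReal.ofReal (2 * π * (36 * π / (1 - ρ))) = ENNReal.ofReal (2 * π) * ENNReal.ofReal (36 * π / (1 - ρ)) :=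
    ENNReal.ofReal_mul (by positivity)
  rw [h2, sub_zero, mul_comm, mul_assoc] at h
  exact (ENNReal.mul_le_mul_iff_right (by simp [hpi]) ENNReal.ofReal_ne_top).mp h

lemma hilbert_measurable {v : ℂ → ℂ} (hv : Continuous v) (a : ℝ) (f : 𝓢(ℂ, ℂ)) :
    Measurable (hilbert v a f) := by
  have h : hilbert v a f = fun x => Psi a f x (v x) := by
    ext x; exact hilbert_eq v a f x
  rw [h]
  exact (Psi_measurable a f).comp (Measurable.prodMk measurable_id hv.measurable)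

lemma hilbert_zero {v : ℂ → ℂ} (hv1 : ∀ x, ‖v x‖ = 1) (c : ℂ) (f : 𝓢(ℂ, ℂ))
    (hsupp : ∀ y, 1 / 4 < dist y c → f y = 0) {x : ℂ} (hx : 1 / 2 ≤ dist x c) :
    hilbert v (1 / 4) f x = 0 := by
  rw [hilbert_eq, Psi]
  rw [setIntegral_congr_fun (g := fun _ => (0 : ℂ)) measurableSet_Ioo, integral_zero]
  intro t ht
  have h1 : f (x - (t : ℂ) * v x) = 0 := by
    apply hsupp
    rw [dist_eq_norm] at *
    have h2 : ‖x - c‖ ≤ ‖x - (t : ℂ) * v x - c‖ + ‖(t : ℂ) * v x‖ := by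
      have := norm_add_le (x - (t : ℂ) * v x - c) ((t : ℂ) * v x)
      convert! this using 2
      ring
    rw [norm_mul, hv1, Complex.norm_real, Real.norm_eq_abs, abs_of_pos ht.1, mul_one] at h2
    linarith [ht.2]
  have h3 : f (x + (t : ℂ) * v x) = 0 := by
    apply hsupp
    rw [dist_eq_norm] at *
    have h2 : ‖x - c‖ ≤ ‖x + (t : ℂ) * v x - c‖ + ‖(t : ℂ) * v x‖ := by
      have := norm_sub_le (x + (t : ℂ) * v x - c) ((t : ℂ) * v x)
      convert! this using 2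
      ring
    rw [norm_mul, hv1, Complex.norm_real, Real.norm_eq_abs, abs_of_pos ht.1, mul_one] at h2
    linarith [ht.2]
  simp only [h1, h3, sub_zero, zero_div]

lemma mode_weak {v : ℂ → ℂ} (hv1 : ∀ x, ‖v x‖ = 1) (hv : LipschitzWith 1 v) (c : ℂ)
    (f : 𝓢(ℂ, ℂ)) (m : ℤ)
    (hf : ∀ (τ : ℝ) (y : ℂ), f (rot c τ y) = Complex.exp (m * τ * Complex.I) * f y)
    (hsupp : ∀ y, 1 / 4 < dist y c → f y = 0) {lam : ℝ} (hlam : 0 < lam) :
    volume {x | lam < ‖hilbert v (1 / 4) f x‖}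
      ≤ ENNReal.ofReal (72 * π / lam ^ 2) * ∫⁻ x, ‖f x‖ₑ ^ 2 := by
  have hpi := Real.pi_pos
  have hs := mode_strong hv1 hv c (a := 1 / 4) (ρ := 1 / 2) (by norm_num) (by norm_num) f m hf
  have hsub : {x | lam < ‖hilbert v (1 / 4) f x‖} ⊆
      {x | x ∈ Metric.ball c (1 / 2) ∧ ENNReal.ofReal lam ^ 2 ≤ ‖hilbert v (1 / 4) f x‖ₑ ^ 2} := by
    intro x hx
    refine ⟨?_, ?_⟩
    · by_contra hcon
      rw [Metric.mem_ball, not_lt] at hcon
      have := hilbert_zero hv1 c f hsupp hcon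
      simp only [mem_ofPred_eq, this, norm_zero] at hx
      linarith
    · rw [← ofReal_norm]
      gcongr
      exact le_of_lt hx
  have hcheb := mul_meas_ge_le_lintegral₀ (μ := volume.restrict (Metric.ball c (1 / 2)))
    (f := fun x => ‖hilbert v (1 / 4) f x‖ₑ ^ 2)
    (((hilbert_measurable hv.continuous (1 / 4) f).enorm.pow_const 2).aemeasurable) (ENNReal.ofReal lam ^ 2)
  have hvol : volume {x | lam < ‖hilbert v (1 / 4) f x‖} ≤
      (volume.restrict (Metric.ball c (1 / 2))) {x | ENNReal.ofReal lam ^ 2 ≤ ‖hilbert v (1 / 4) f x‖ₑ ^ 2} := by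
    rw [Measure.restrict_apply' measurableSet_ball]
    apply measure_mono
    intro x hx
    exact ⟨(hsub hx).2, (hsub hx).1⟩
  have hl0 : ENNReal.ofReal lam ^ 2 ≠ 0 := by
    simp [hlam]
  have hlt : ENNReal.ofReal lam ^ 2 ≠ ⊤ := by
    simp
  have h1 : ENNReal.ofReal lam ^ 2 * volume {x | lam < ‖hilbert v (1 / 4) f x‖} ≤
      ENNReal.ofReal (72 * π) * ∫⁻ x, ‖f x‖ₑ ^ 2 := by
    calc _ ≤ _ := by gcongr
      _ ≤ _ := hcheb
      _ ≤ _ := hs
      _ = _ := by
        congr 2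
        norm_num
        ring
  have h2 : ENNReal.ofReal (72 * π / lam ^ 2) = (ENNReal.ofReal lam ^ 2)⁻¹ * ENNReal.ofReal (72 * π) := by
    rw [← ENNReal.ofReal_pow hlam.le, ← ENNReal.ofReal_inv_of_pos (by positivity), ← ENNReal.ofReal_mul (by positivity)]
    congr 1
    field_simp
  rw [h2, mul_assoc]
  rw [← ENNReal.div_eq_inv_mul, ENNReal.le_div_iff_mul_le (Or.inl hl0) (Or.inl hlt), mul_comm]
  exact h1

end

end Vale.Agent.P112
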