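import Vale.Agent.P112.Multiplier

namespace Vale.Agent.P112

open MeasureTheory Set Filter Topology
open scoped Real SchwartzMap FourierTransform ContDiff ENNReal NNReal

noncomputable section

/-- the truncated kernel -/
def ker (ε a : ℝ) : ℝ → ℂ := (annulus1 ε a).indicator (fun t => ((t : ℂ))⁻¹)

lemma measurableSet_annulus1 (ε a : ℝ) : MeasurableSet (annulus1 ε a) := by
  unfold annulus1
  apply MeasurableSet.inter
  · exact measurableSet_lt measurable_const measurable_norm
  · exact measurableSet_lt measurable_norm measurable_const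

lemma volume_annulus1_lt_top (ε a : ℝ) : volume (annulus1 ε a) < ⊤ := by
  have : annulus1 ε a ⊆ Icc (-a) a := by
    rintro t ⟨_, h⟩
    exact ⟨(abs_lt.mp h).1.le, (abs_lt.mp h).2.le⟩
  exact (measure_mono this).trans_lt (by simp)

lemma ker_integrable {ε a : ℝ} (hε : 0 < ε) (n : ℕ) :
    Integrable (fun t : ℝ => t ^ n • ker ε a t) := by
  have h1 : (fun t : ℝ => t ^ n • ker ε a t)
      = (annulus1 ε a).indicator (fun t : ℝ => (t ^ n : ℝ) • ((t : ℂ))⁻¹) := by
    ext t
    simp only [ker, indicator]
    split_ifs <;> simp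
  rw [h1, integrable_indicator_iff (measurableSet_annulus1 ε a)]
  apply Measure.integrableOn_of_bounded (M := |a| ^ n * ε⁻¹) (volume_annulus1_lt_top ε a).ne
  · apply Measurable.aestronglyMeasurable
    fun_prop
  · apply (ae_restrict_iff' (measurableSet_annulus1 ε a)).mpr
    apply Eventually.of_forall
    rintro t ⟨h1, h2⟩
    rw [norm_smul, norm_inv, norm_pow, Complex.norm_real]
    have ha : |t| ≤ |a| := h2.le.trans (le_abs_self a)
    have ht0 : 0 < |t| := hε.trans h1
    simp only [Real.norm_eq_abs]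
    gcongr

/-- multiplier -/
def mult (ε a : ℝ) : ℝ → ℂ := 𝓕 (ker ε a)

lemma mult_temperate {ε a : ℝ} (hε : 0 < ε) : (mult ε a).HasTemperateGrowth := by
  have hint : ∀ n : ℕ, Integrable (fun t : ℝ => t ^ n • ker ε a t) := ker_integrable hε
  have hint' : ∀ n : ℕ, (n : ℕ∞) ≤ (⊤ : ℕ∞) → Integrable (fun v : ℝ ↦ ‖v‖ ^ n * ‖ker ε a v‖) := by
    intro n _
    have := (hint n).norm
    simpa [norm_smul] using this
  refine ⟨?_, fun n => ?_⟩
  · exact Real.contDiff_fourier hint'
  · refine ⟨0, ∫ t : ℝ, ‖(-2 * π * Complex.I * t) ^ n • ker ε a t‖, fun x => ?_⟩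
    rw [pow_zero, mul_one, norm_iteratedFDeriv_eq_norm_iteratedDeriv]
    rw [mult, Real.iteratedDeriv_fourier (N := ⊤) (fun n _ => hint n) le_top]
    rw [Real.fourier_eq]
    refine (norm_integral_le_integral_norm _).trans (le_of_eq ?_)
    congr 1
    ext t
    rw [Circle.norm_smul]

lemma mult_eq {ε a : ℝ} (hε : 0 < ε) (hεa : ε < a) (s : ℝ) :
    mult ε a s = (-2 * Complex.I) * ((∫ t in ε..a, Real.sin (2 * π * s * t) / t : ℝ) : ℂ) := by
  rw [mult, Real.fourier_eq]
  have h0 : ∀ t : ℝ, Real.fourierChar (-(inner ℝ t s)) • ker ε a t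
      = (annulus1 ε a).indicator (fun t : ℝ => (Complex.exp (-2 * π * s * t * Complex.I)) * ((t : ℂ))⁻¹) t := by
    intro t
    simp only [ker, indicator]
    split_ifs
    · rw [Circle.smul_def, Real.fourierChar_apply]
      simp only [smul_eq_mul]
      congr 2
      simp
      ring
    · simp
  simp_rw [h0]
  rw [integral_indicator (measurableSet_annulus1 ε a), annulus1_fold hε]
  · rw [intervalIntegral.integral_of_le hεa.le, ← integral_Ioc_eq_integral_Ioo,
      ← integral_complex_ofReal, ← integral_const_mul]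
    apply setIntegral_congr_fun measurableSet_Ioc
    intro t ht
    have ht0 : (t : ℂ) ≠ 0 := by exact_mod_cast (hε.trans ht.1).ne'
    simp only []
    push_cast
    have e1 : Complex.exp (-2 * π * s * t * Complex.I) = Complex.cos (2 * π * s * t) - Complex.sin (2 * π * s * t) * Complex.I := by
      rw [show (-2 * π * s * t * Complex.I : ℂ) = (-(2 * π * s * t)) * Complex.I by ring,
        Complex.exp_mul_I, Complex.cos_neg, Complex.sin_neg]
      ring
    have e2 : Complex.exp (-2 * π * s * (-t) * Complex.I) = Complex.cos (2 * π * s * t) + Complex.sin (2 * π * s * t) * Complex.I := by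
      rw [show (-2 * π * s * (-t) * Complex.I : ℂ) = ((2 * π * s * t)) * Complex.I by ring,
        Complex.exp_mul_I]
    rw [e1, e2]
    field_simp
    ring
  · apply Measure.integrableOn_of_bounded (M := ε⁻¹) (by simp)
    · apply Measurable.aestronglyMeasurable
      fun_prop
    · apply (ae_restrict_iff' measurableSet_Ioo).mpr
      apply Eventually.of_forall
      rintro t ⟨h1, h2⟩
      rw [norm_mul, norm_inv, Complex.norm_real, Real.norm_eq_abs, abs_of_pos (hε.trans h1)]
      have : ‖Complex.exp (-2 * π * s * t * Complex.I)‖ = 1 := by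
        rw [show (-2 * π * s * t * Complex.I : ℂ) = ((-2 * π * s * t : ℝ) : ℂ) * Complex.I by push_cast; ring]
        exact Complex.norm_exp_ofReal_mul_I _
      rw [this, one_mul]
      exact inv_anti₀ hε h1.le
  · apply Measure.integrableOn_of_bounded (M := ε⁻¹) (by simp)
    · apply Measurable.aestronglyMeasurable
      fun_prop
    · apply (ae_restrict_iff' measurableSet_Ioo).mpr
      apply Eventually.of_forall
      rintro t ⟨h1, h2⟩
      rw [norm_mul, norm_inv, Complex.norm_real, Real.norm_eq_abs, abs_neg, abs_of_pos (hε.trans h1)]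
      have : ‖Complex.exp (-2 * π * s * ((-t : ℝ) : ℂ) * Complex.I)‖ = 1 := by
        rw [show (-2 * π * s * ((-t : ℝ) : ℂ) * Complex.I : ℂ) = ((2 * π * s * t : ℝ) : ℂ) * Complex.I by push_cast; ring]
        exact Complex.norm_exp_ofReal_mul_I _
      rw [this, one_mul]
      exact inv_anti₀ hε h1.le

lemma norm_mult_le {ε a : ℝ} (hε : 0 < ε) (hεa : ε < a) (s : ℝ) : ‖mult ε a s‖ ≤ 6 := by
  rw [mult_eq hε hεa, norm_mul, Complex.norm_real, Real.norm_eq_abs]
  have := sin_scaled_bound (b := 2 * π * s) hε hεa.le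
  have h2 : ‖(-2 * Complex.I : ℂ)‖ = 2 := by simp
  rw [h2]; linarith

end

end Vale.Agent.P112
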