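import Vale.Agent.P112.LTwo

namespace Vale.Agent.P112

open MeasureTheory Set Filter Topology
open scoped Real SchwartzMap FourierTransform ContDiff ENNReal NNReal

noncomputable section

/-- the multiplier in the plane -/
def mult2 (ε a : ℝ) (e : ℂ) : ℂ → ℂ := fun ξ => mult ε a (inner ℝ e ξ)

lemma mult2_temperate {ε a : ℝ} (hε : 0 < ε) (e : ℂ) : (mult2 ε a e).HasTemperateGrowth := by
  have h1 : (fun ξ : ℂ => (inner ℝ e ξ : ℝ)).HasTemperateGrowth := (innerSL ℝ e).hasTemperateGrowth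
  exact (mult_temperate hε).comp h1

/-- the multiplier operator on Schwartz functions -/
def opT (ε a : ℝ) (e : ℂ) (f : 𝓢(ℂ, ℂ)) : 𝓢(ℂ, ℂ) :=
  𝓕⁻ (SchwartzMap.smulLeftCLM ℂ (mult2 ε a e) (𝓕 f))

lemma opT_apply {ε a : ℝ} (hε : 0 < ε) (e : ℂ) (f : 𝓢(ℂ, ℂ)) (x : ℂ) :
    opT ε a e f x = ∫ t in annulus1 ε a, f (x - (t : ℂ) * e) / (t : ℂ) := by
  have hinv : ∀ y : ℂ, f y = ∫ ξ : ℂ, Real.fourierChar (inner ℝ ξ y) • (𝓕 f) ξ := by
    intro y
    have h0 : (𝓕⁻ (𝓕 f) : 𝓢(ℂ, ℂ)) = f := FourierTransform.fourierInv_fourier_eq f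
    have h : (𝓕⁻ (𝓕 f) : 𝓢(ℂ, ℂ)) y = f y := by rw [h0]
    rw [← h, SchwartzMap.fourierInv_coe, Real.fourierInv_eq]
  have h1 : opT ε a e f x = ∫ ξ : ℂ, Real.fourierChar (inner ℝ ξ x) • (mult ε a (inner ℝ e ξ) * (𝓕 f) ξ) := by
    rw [opT, SchwartzMap.fourierInv_coe, Real.fourierInv_eq]
    congr 1
    ext ξ
    rw [SchwartzMap.smulLeftCLM_apply_apply (mult2_temperate hε e)]
    simp [mult2]
  rw [h1]
  have h2 : ∀ ξ : ℂ, Real.fourierChar (inner ℝ ξ x) • (mult ε a (inner ℝ e ξ) * (𝓕 f) ξ)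
      = ∫ t : ℝ, ker ε a t * (Real.fourierChar (inner ℝ ξ (x - (t : ℂ) * e)) • (𝓕 f) ξ) := by
    intro ξ
    rw [mult, Real.fourier_eq, ← integral_mul_const, Circle.smul_def, smul_eq_mul,
      ← integral_const_mul]
    congr 1
    ext t
    have e1 : (inner ℝ ξ (x - (t : ℂ) * e) : ℝ) = inner ℝ ξ x + -(inner ℝ t (inner ℝ e ξ : ℝ)) := by
      rw [inner_sub_right, ← Complex.real_smul, inner_smul_right, real_inner_comm ξ e]
      simp [mul_comm]
      ring
    rw [e1, AddChar.map_add_eq_mul]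
    simp only [Circle.smul_def, Circle.coe_mul, smul_eq_mul]
    ring
  simp_rw [h2]
  rw [integral_integral_swap]
  · rw [← integral_indicator (measurableSet_annulus1 ε a)]
    congr 1
    ext t
    rw [integral_const_mul]
    rw [← hinv]
    simp only [ker, indicator]
    split_ifs
    · rw [div_eq_mul_inv, mul_comm]
    · simp
  · have hk : Integrable (ker ε a) := by simpa using ker_integrable (ε := ε) (a := a) hε 0
    have hf : Integrable (fun ξ : ℂ => (𝓕 f) ξ) := (𝓕 f).integrable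
    have hp := hf.mul_prod hk
    have hbdd : AEStronglyMeasurable (fun p : ℂ × ℝ => ((Real.fourierChar (inner ℝ p.1 (x - (p.2 : ℂ) * e)) : Circle) : ℂ))
        (volume.prod volume) := by
      apply Continuous.aestronglyMeasurable
      have hc : Continuous (fun z : Circle => (z : ℂ)) := by fun_prop
      apply Continuous.comp hc
      apply Continuous.comp Real.continuous_fourierChar
      fun_prop
    have := hp.bdd_mul (c := 1) hbdd (by
      apply Eventually.of_forall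
      intro p
      exact (Circle.norm_coe _).le)
    refine this.congr (Eventually.of_forall ?_)
    rintro ⟨ξ, t⟩
    simp only [Function.uncurry, Circle.smul_def, smul_eq_mul]
    ring

lemma lintegral_opT_le {ε a : ℝ} (hε : 0 < ε) (hεa : ε < a) (e : ℂ) (f : 𝓢(ℂ, ℂ)) :
    ∫⁻ x, ‖opT ε a e f x‖ₑ ^ 2 ≤ 36 * ∫⁻ x, ‖f x‖ₑ ^ 2 := by
  have hL : ∀ g : 𝓢(ℂ, ℂ), ∫⁻ x, ‖g x‖ₑ ^ 2 = ENNReal.ofReal (∫ x, ‖g x‖ ^ 2) := by
    intro g
    rw [ofReal_integral_eq_lintegral_ofReal]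
    · congr 1
      ext x
      rw [← ofReal_norm, ENNReal.ofReal_pow (norm_nonneg _)]
    · have := (g.memLp 2 volume).integrable_norm_pow (by norm_num)
      simpa using this
    · exact Eventually.of_forall (fun x => by positivity)
  have hP : ∀ g : 𝓢(ℂ, ℂ), ∫⁻ x, ‖(𝓕 g) x‖ₑ ^ 2 = ∫⁻ x, ‖g x‖ₑ ^ 2 := by
    intro g
    rw [hL, hL, SchwartzMap.integral_norm_sq_fourier]
  rw [← hP (opT ε a e f)]
  have h3 : 𝓕 (opT ε a e f) = SchwartzMap.smulLeftCLM ℂ (mult2 ε a e) (𝓕 f) := by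
    rw [opT, FourierTransform.fourier_fourierInv_eq]
  rw [h3, ← hP f, ← lintegral_const_mul' _ _ (by norm_num)]
  apply lintegral_mono
  intro ξ
  simp only []
  rw [SchwartzMap.smulLeftCLM_apply_apply (mult2_temperate hε e), smul_eq_mul, enorm_mul, mul_pow]
  gcongr
  have h4 : ‖mult2 ε a e ξ‖ₑ ≤ 6 := by
    rw [← ofReal_norm]
    have := norm_mult_le hε hεa (inner ℝ e ξ)
    calc ENNReal.ofReal ‖mult2 ε a e ξ‖ ≤ ENNReal.ofReal 6 := ENNReal.ofReal_le_ofReal this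
      _ = 6 := by simp
  calc ‖mult2 ε a e ξ‖ₑ ^ 2 ≤ 6 ^ 2 := by gcongr
    _ = 36 := by norm_num

end

end Vale.Agent.P112
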