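import Vale.Agent.P112.PV
import Vale.Agent.P112.CircleMeasure

namespace Vale.Agent.P112

open MeasureTheory Set Filter Topology
open scoped Real SchwartzMap FourierTransform ContDiff ENNReal NNReal

noncomputable section

lemma trunc_eq (v : ℂ → ℂ) (a ε : ℝ) (g : ℂ → ℂ) (x : ℂ) :
    truncHilbert v a ε g x = ∫ t in annulus1 ε a, g (x - (t : ℂ) * v x) / (t : ℂ) := rfl

lemma tendsto_hilbert (v : ℂ → ℂ) (a : ℝ) (f : 𝓢(ℂ, ℂ)) (x : ℂ) :
    Tendsto (fun ε => truncHilbert v a ε f x) (𝓝[>] 0) (𝓝 (hilbert v a f x)) := by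
  have h : Tendsto (fun ε => truncHilbert v a ε f x) (𝓝[>] 0) (𝓝 (Psi a f x (v x))) :=
    tendsto_trunc f x (v x)
  exact tendsto_nhds_limUnder ⟨_, h⟩

lemma hilbert_eq (v : ℂ → ℂ) (a : ℝ) (f : 𝓢(ℂ, ℂ)) (x : ℂ) :
    hilbert v a f x = Psi a f x (v x) := by
  have h : Tendsto (fun ε => truncHilbert v a ε f x) (𝓝[>] 0) (𝓝 (Psi a f x (v x))) :=
    tendsto_trunc f x (v x)
  exact h.limUnder_eq

lemma rot_trunc (v : ℂ → ℂ) (a ε : ℝ) (f : ℂ → ℂ) (c : ℂ) (τ : ℝ) (x : ℂ) :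
    truncHilbert v a ε (fun y => f (rot c τ y)) x
      = ∫ t in annulus1 ε a, f (rot c τ x - (t : ℂ) * (Complex.exp (τ * Complex.I) * v x)) / (t : ℂ) := by
  rw [trunc_eq]
  congr 1
  ext t
  simp only [rot]
  congr 2
  ring

lemma tendsto_hilbert_rot (v : ℂ → ℂ) (a : ℝ) (f : 𝓢(ℂ, ℂ)) (c : ℂ) (τ : ℝ) (x : ℂ) :
    Tendsto (fun ε => truncHilbert v a ε (fun y => f (rot c τ y)) x) (𝓝[>] 0)
      (𝓝 (Psi a f (rot c τ x) (Complex.exp (τ * Complex.I) * v x))) := by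
  simp_rw [rot_trunc]
  exact tendsto_trunc f _ _

lemma hilbert_rot (v : ℂ → ℂ) (a : ℝ) (f : 𝓢(ℂ, ℂ)) (c : ℂ) (τ : ℝ) (x : ℂ) :
    hilbert v a (fun y => f (rot c τ y)) x
      = Psi a f (rot c τ x) (Complex.exp (τ * Complex.I) * v x) :=
  (tendsto_hilbert_rot v a f c τ x).limUnder_eq

lemma rot_measurePreserving (c : ℂ) (τ : ℝ) : MeasurePreserving (rot c τ) volume volume := by
  have h1 : MeasurePreserving (fun x : ℂ => x - c) volume volume :=
    measurePreserving_sub_right volume c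
  have h2 : MeasurePreserving (rotation (Circle.exp τ)) volume volume :=
    (rotation (Circle.exp τ)).measurePreserving
  have h3 : MeasurePreserving (fun x : ℂ => c + x) volume volume :=
    measurePreserving_add_left volume c
  have h := h3.comp (h2.comp h1)
  convert! h using 1

lemma rot_rot_neg (c : ℂ) (τ : ℝ) (x : ℂ) : rot c τ (rot c (-τ) x) = x := by
  simp only [rot, add_sub_cancel_left, ← mul_assoc, ← Complex.exp_add]
  simp

lemma rot_neg_rot (c : ℂ) (τ : ℝ) (x : ℂ) : rot c (-τ) (rot c τ x) = x := by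
  simp only [rot, add_sub_cancel_left, ← mul_assoc, ← Complex.exp_add]
  simp

lemma dist_rot (c : ℂ) (τ : ℝ) (x : ℂ) : dist (rot c τ x) c = dist x c := by
  rw [dist_eq_norm, dist_eq_norm, rot, add_sub_cancel_left, norm_mul,
    Complex.norm_exp_ofReal_mul_I, one_mul]

lemma rot_emb (c : ℂ) (τ : ℝ) : MeasurableEmbedding (rot c τ) := by
  apply Continuous.measurableEmbedding
  · unfold rot; fun_prop
  · intro x y h
    have := congrArg (rot c (-τ)) h
    rwa [rot_neg_rot, rot_neg_rot] at this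

lemma inner_change (v : ℂ → ℂ) (a : ℝ) (f : 𝓢(ℂ, ℂ)) (c : ℂ) (ρ : ℝ) (τ : ℝ) :
    ∫⁻ x in Metric.ball c ρ, ‖hilbert v a (fun y => f (rot c τ y)) x‖ₑ ^ 2
      = ∫⁻ y in Metric.ball c ρ, ‖Psi a f y (Complex.exp (τ * Complex.I) * v (rot c (-τ) y))‖ₑ ^ 2 := by
  have hpre : rot c τ ⁻¹' (Metric.ball c ρ) = Metric.ball c ρ := by
    ext x
    simp only [mem_preimage, Metric.mem_ball, dist_rot]
  have h := (rot_measurePreserving c τ).setLIntegral_comp_preimage_emb (rot_emb c τ)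
    (fun y => ‖Psi a f y (Complex.exp (τ * Complex.I) * v (rot c (-τ) y))‖ₑ ^ 2) (Metric.ball c ρ)
  rw [hpre] at h
  rw [← h]
  apply lintegral_congr
  intro x
  rw [hilbert_rot, rot_neg_rot]

lemma u_expanding {v : ℂ → ℂ} (hv1 : ∀ x, ‖v x‖ = 1) (hv : LipschitzWith 1 v) (c : ℂ) {ρ : ℝ}
    (hρ1 : ρ < 1) {y : ℂ} (hy : y ∈ Metric.ball c ρ) (τ τ' : ℝ) :
    ‖Complex.exp (τ * Complex.I) - Complex.exp (τ' * Complex.I)‖ ≤
      (Real.toNNReal (1 / (1 - ρ)) : ℝ≥0) *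
      ‖Complex.exp (τ * Complex.I) * v (rot c (-τ) y) - Complex.exp (τ' * Complex.I) * v (rot c (-τ') y)‖ := by
  have hpos : 0 < 1 - ρ := by linarith
  rw [Real.coe_toNNReal _ (by positivity)]
  set A := Complex.exp (τ * Complex.I) with hA
  set B := Complex.exp (τ' * Complex.I) with hB
  have hAn : ‖A‖ = 1 := Complex.norm_exp_ofReal_mul_I _
  have hBn : ‖B‖ = 1 := Complex.norm_exp_ofReal_mul_I _
  have hA' : Complex.exp (((-τ : ℝ) : ℂ) * Complex.I) = (starRingEnd ℂ) A := by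
    rw [hA, ← Complex.exp_conj]
    simp
  have hB' : Complex.exp (((-τ' : ℝ) : ℂ) * Complex.I) = (starRingEnd ℂ) B := by
    rw [hB, ← Complex.exp_conj]
    simp
  set w := v (rot c (-τ) y) with hw
  set w' := v (rot c (-τ') y) with hw'
  have h1 : ‖w - w'‖ ≤ ‖A - B‖ * ρ := by
    have h2 := hv.dist_le_mul (rot c (-τ) y) (rot c (-τ') y)
    rw [dist_eq_norm, dist_eq_norm, NNReal.coe_one, one_mul] at h2
    have h3 : rot c (-τ) y - rot c (-τ') y = ((starRingEnd ℂ) (A - B)) * (y - c) := by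
      simp only [rot, hA', hB', map_sub]
      ring
    rw [h3, norm_mul, RCLike.norm_conj] at h2
    have h4 : ‖y - c‖ ≤ ρ := by
      rw [Metric.mem_ball, dist_eq_norm] at hy
      exact hy.le
    exact h2.trans (mul_le_mul_of_nonneg_left h4 (norm_nonneg _))
  have h5 : A * w - B * w' = (A - B) * w + B * (w - w') := by ring
  have h6 : ‖A - B‖ - ‖w - w'‖ ≤ ‖A * w - B * w'‖ := by
    rw [h5]
    have h7 : ‖(A - B) * w‖ = ‖A - B‖ := by rw [norm_mul, hw, hv1, mul_one]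
    have h8 : ‖B * (w - w')‖ = ‖w - w'‖ := by rw [norm_mul, hBn, one_mul]
    have h9 := norm_sub_le ((A - B) * w + B * (w - w')) (B * (w - w'))
    rw [add_sub_cancel_right, h7, h8] at h9
    linarith
  rw [div_mul_eq_mul_div, one_mul, le_div_iff₀ hpos]
  nlinarith [norm_nonneg (A - B)]

lemma main_average {v : ℂ → ℂ} (hv1 : ∀ x, ‖v x‖ = 1) (hv : LipschitzWith 1 v) (c : ℂ) {a ρ : ℝ}
    (ha : 0 < a) (hρ1 : ρ < 1) (f : 𝓢(ℂ, ℂ)) :
    ∫⁻ τ in Ioc (0 : ℝ) (2 * π), ∫⁻ x in Metric.ball c ρ,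
        ‖hilbert v a (fun y => f (rot c τ y)) x‖ₑ ^ 2
      ≤ ENNReal.ofReal (2 * π * (36 * π / (1 - ρ))) * ∫⁻ x, ‖f x‖ₑ ^ 2 := by
  have hpos : 0 < 1 - ρ := by linarith
  have hpi := Real.pi_pos
  simp_rw [inner_change]
  have hvc : Continuous v := hv.continuous
  have hrotc : Continuous (fun p : ℝ × ℂ => rot c (-p.1) p.2) := by
    unfold rot; fun_prop
  have hmeas : Measurable (fun p : ℝ × ℂ =>
      ‖Psi a f p.2 (Complex.exp (p.1 * Complex.I) * v (rot c (-p.1) p.2))‖ₑ ^ 2) := by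
    have h1 : Measurable (fun p : ℝ × ℂ => (p.2, Complex.exp (p.1 * Complex.I) * v (rot c (-p.1) p.2))) := by
      apply Measurable.prodMk measurable_snd
      apply Continuous.measurable
      have h2 : Continuous (fun p : ℝ × ℂ => v (rot c (-p.1) p.2)) := hvc.comp hrotc
      fun_prop
    exact ((Psi_measurable a f).comp h1).enorm.pow_const 2
  have hswap : ∫⁻ τ in Ioc (0 : ℝ) (2 * π), ∫⁻ y in Metric.ball c ρ,
      ‖Psi a f y (Complex.exp (τ * Complex.I) * v (rot c (-τ) y))‖ₑ ^ 2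
      = ∫⁻ y in Metric.ball c ρ, ∫⁻ τ in Ioc (0 : ℝ) (2 * π),
      ‖Psi a f y (Complex.exp (τ * Complex.I) * v (rot c (-τ) y))‖ₑ ^ 2 :=
    lintegral_lintegral_swap hmeas.aemeasurable
  rw [hswap]
  have hstep : ∀ y ∈ Metric.ball c ρ, ∫⁻ τ in Ioc (0 : ℝ) (2 * π),
      ‖Psi a f y (Complex.exp (τ * Complex.I) * v (rot c (-τ) y))‖ₑ ^ 2
      ≤ ENNReal.ofReal (π * (1 / (1 - ρ))) * ∫⁻ α in Ioc (-π) π, ‖Psi a f y (Complex.exp (α * Complex.I))‖ₑ ^ 2 := by
    intro y hy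
    have hu : Measurable (fun τ : ℝ => Complex.exp (τ * Complex.I) * v (rot c (-τ) y)) := by
      apply Continuous.measurable
      have h2 : Continuous (fun τ : ℝ => v (rot c (-τ) y)) := by
        apply hvc.comp
        unfold rot
        fun_prop
      exact Continuous.mul (by fun_prop) h2
    have h := circle_lintegral (fun τ : ℝ => Complex.exp (τ * Complex.I) * v (rot c (-τ) y)) hu
      (by intro τ; rw [norm_mul, Complex.norm_exp_ofReal_mul_I, hv1, mul_one])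
      (K := Real.toNNReal (1 / (1 - ρ)))
      (u_expanding hv1 hv c hρ1 hy)
      (fun e => ‖Psi a f y e‖ₑ ^ 2)
      (((Psi_measurable a f).comp (Measurable.prodMk measurable_const measurable_id)).enorm.pow_const 2)
    rw [Real.coe_toNNReal _ (by positivity)] at h
    exact h
  have hmeas2 : Measurable (fun p : ℂ × ℝ => ‖Psi a f p.1 (Complex.exp (p.2 * Complex.I))‖ₑ ^ 2) := by
    have h1 : Measurable (fun p : ℂ × ℝ => (p.1, Complex.exp (p.2 * Complex.I))) := by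
      apply Measurable.prodMk measurable_fst
      fun_prop
    exact ((Psi_measurable a f).comp h1).enorm.pow_const 2
  calc ∫⁻ y in Metric.ball c ρ, ∫⁻ τ in Ioc (0 : ℝ) (2 * π),
      ‖Psi a f y (Complex.exp (τ * Complex.I) * v (rot c (-τ) y))‖ₑ ^ 2
      ≤ ∫⁻ y in Metric.ball c ρ, ENNReal.ofReal (π * (1 / (1 - ρ))) *
          ∫⁻ α in Ioc (-π) π, ‖Psi a f y (Complex.exp (α * Complex.I))‖ₑ ^ 2 := by
        apply setLIntegral_mono' measurableSet_ball
        exact hstep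
    _ ≤ ∫⁻ y, ENNReal.ofReal (π * (1 / (1 - ρ))) *
          ∫⁻ α in Ioc (-π) π, ‖Psi a f y (Complex.exp (α * Complex.I))‖ₑ ^ 2 :=
        setLIntegral_le_lintegral _ _
    _ = ENNReal.ofReal (π * (1 / (1 - ρ))) * ∫⁻ y,
          ∫⁻ α in Ioc (-π) π, ‖Psi a f y (Complex.exp (α * Complex.I))‖ₑ ^ 2 := by
        rw [lintegral_const_mul' _ _ ENNReal.ofReal_ne_top]
    _ = ENNReal.ofReal (π * (1 / (1 - ρ))) * ∫⁻ α in Ioc (-π) π, ∫⁻ y,
          ‖Psi a f y (Complex.exp (α * Complex.I))‖ₑ ^ 2 := by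
        rw [lintegral_lintegral_swap hmeas2.aemeasurable]
    _ ≤ ENNReal.ofReal (π * (1 / (1 - ρ))) * ∫⁻ α in Ioc (-π) π, 36 * ∫⁻ x, ‖f x‖ₑ ^ 2 := by
        gcongr with α
        exact lintegral_Psi_le ha _ f
    _ = ENNReal.ofReal (2 * π * (36 * π / (1 - ρ))) * ∫⁻ x, ‖f x‖ₑ ^ 2 := by
        rw [setLIntegral_const, Real.volume_Ioc]
        have h36 : (36 : ℝ≥0∞) = ENNReal.ofReal 36 := by simp
        have hconst : ENNReal.ofReal (2 * π * (36 * π / (1 - ρ)))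
            = ENNReal.ofReal (π * (1 / (1 - ρ))) * ENNReal.ofReal 36 * ENNReal.ofReal (π - -π) := by
          rw [← ENNReal.ofReal_mul (by positivity), ← ENNReal.ofReal_mul (by positivity)]
          congr 1
          field_simp
          ring
        rw [h36, hconst]
        ring

end

end Vale.Agent.P112
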