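import Mathlib

namespace Vale.Agent.P112

open MeasureTheory Set Filter Topology
open scoped Real

lemma sin_div_bound_one {p q : ℝ} (hp : 0 < p) (hpq : p ≤ q) (hq : q ≤ 1) :
    |∫ u in p..q, Real.sin u / u| ≤ 1 := by
  have h := intervalIntegral.norm_integral_le_of_norm_le_const (a := p) (b := q) (C := 1)
    (f := fun u => Real.sin u / u) (by
      intro u hu
      rw [uIoc_of_le hpq] at hu
      have hu0 : 0 < u := lt_trans hp hu.1
      rw [Real.norm_eq_abs, abs_div]
      apply div_le_one_of_le₀ _ (abs_nonneg _)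
      exact Real.abs_sin_le_abs)
  rw [Real.norm_eq_abs] at h
  have : 1 * |q - p| ≤ 1 := by rw [abs_of_nonneg (by linarith)]; linarith
  linarith

lemma sin_div_bound_two {p q : ℝ} (hp : 1 ≤ p) (hpq : p ≤ q) :
    |∫ u in p..q, Real.sin u / u| ≤ 2 := by
  have hp0 : 0 < p := by linarith
  have hq0 : 0 < q := by linarith
  have hpos : ∀ u ∈ uIcc p q, 0 < u := by
    intro u hu
    rw [uIcc_of_le hpq] at hu
    exact lt_of_lt_of_le hp0 hu.1
  have hcont : ContinuousOn (fun u : ℝ => u⁻¹) (uIcc p q) :=
    continuousOn_inv₀.mono (fun u hu => (hpos u hu).ne')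
  have hcont2 : ContinuousOn (fun u : ℝ => -(u ^ 2)⁻¹) (uIcc p q) := by
    apply ContinuousOn.neg
    apply ContinuousOn.inv₀ (by fun_prop)
    intro u hu
    exact pow_ne_zero _ (hpos u hu).ne'
  have hparts := intervalIntegral.integral_mul_deriv_eq_deriv_mul
    (a := p) (b := q) (u := fun u : ℝ => u⁻¹) (u' := fun u : ℝ => -(u ^ 2)⁻¹)
    (v := fun u : ℝ => -Real.cos u) (v' := fun u : ℝ => Real.sin u)
    (by intro u hu
        exact hasDerivAt_inv (hpos u hu).ne')
    (by intro u hu
        simpa using (Real.hasDerivAt_cos u).fun_neg)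
    (hcont2.intervalIntegrable) (Real.continuous_sin.intervalIntegrable _ _)
  have e1 : (∫ u in p..q, Real.sin u / u) = ∫ u in p..q, u⁻¹ * Real.sin u := by
    apply intervalIntegral.integral_congr
    intro u _
    simp only [div_eq_mul_inv, mul_comm]
  have hcosint : |∫ u in p..q, -(u ^ 2)⁻¹ * -Real.cos u| ≤ p⁻¹ - q⁻¹ := by
    have h1 : |∫ u in p..q, -(u ^ 2)⁻¹ * -Real.cos u| ≤ ∫ u in p..q, (u ^ 2)⁻¹ := by
      have := intervalIntegral.norm_integral_le_of_norm_le (a := p) (b := q) (μ := volume)
        (f := fun u : ℝ => -(u ^ 2)⁻¹ * -Real.cos u) (g := fun u : ℝ => (u ^ 2)⁻¹) hpq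
        (by
          apply Eventually.of_forall
          intro u hu
          have hu0 : 0 < u := lt_trans hp0 hu.1
          rw [norm_mul, norm_neg, norm_neg, Real.norm_eq_abs, Real.norm_eq_abs,
            abs_of_nonneg (by positivity : (0:ℝ) ≤ (u^2)⁻¹)]
          have := Real.abs_cos_le_one u
          have h2 : (0:ℝ) ≤ (u^2)⁻¹ := by positivity
          nlinarith)
        (by
          have := hcont2.fun_neg.intervalIntegrable (μ := volume)
          simpa using this)
      simpa using this
    have h2 : (∫ u in p..q, (u ^ 2)⁻¹) = p⁻¹ - q⁻¹ := by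
      have := intervalIntegral.integral_eq_sub_of_hasDerivAt (a := p) (b := q)
        (f := fun u : ℝ => -u⁻¹) (f' := fun u : ℝ => (u ^ 2)⁻¹)
        (by intro u hu
            have := (hasDerivAt_inv (hpos u hu).ne').fun_neg
            simpa using this)
        (by have := hcont2.fun_neg.intervalIntegrable (μ := volume)
            simpa using this)
      rw [this]; ring
    linarith
  rw [e1, hparts]
  have b1 : |q⁻¹ * -Real.cos q| ≤ q⁻¹ := by
    rw [abs_mul, abs_neg, abs_of_pos (inv_pos.mpr hq0)]
    have := Real.abs_cos_le_one q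
    have h2 := inv_pos.mpr hq0
    nlinarith
  have b2 : |p⁻¹ * -Real.cos p| ≤ p⁻¹ := by
    rw [abs_mul, abs_neg, abs_of_pos (inv_pos.mpr hp0)]
    have := Real.abs_cos_le_one p
    have h2 := inv_pos.mpr hp0
    nlinarith
  have b3 : p⁻¹ ≤ 1 := inv_le_one_of_one_le₀ hp
  rw [abs_le] at *
  constructor <;> linarith [b1.1, b1.2, b2.1, b2.2, hcosint.1, hcosint.2]

lemma sin_div_intervalIntegrable {p q : ℝ} (hp : 0 < p) (hq : 0 < q) :
    IntervalIntegrable (fun u => Real.sin u / u) volume p q := by
  apply ContinuousOn.intervalIntegrable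
  apply ContinuousOn.div (Real.continuous_sin.continuousOn) continuousOn_id
  intro u hu
  rcases le_total p q with h | h
  · rw [uIcc_of_le h] at hu; exact (lt_of_lt_of_le hp hu.1).ne'
  · rw [uIcc_of_ge h] at hu; exact (lt_of_lt_of_le hq hu.1).ne'

lemma sin_div_bound {p q : ℝ} (hp : 0 < p) (hpq : p ≤ q) :
    |∫ u in p..q, Real.sin u / u| ≤ 3 := by
  rcases le_total q 1 with h1 | h1
  · exact (sin_div_bound_one hp hpq h1).trans (by norm_num)
  · rcases le_total 1 p with h2 | h2
    · exact (sin_div_bound_two h2 hpq).trans (by norm_num)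
    · rw [← intervalIntegral.integral_add_adjacent_intervals
        (sin_div_intervalIntegrable hp one_pos) (sin_div_intervalIntegrable one_pos (by linarith))]
      refine (abs_add_le _ _).trans ?_
      have := sin_div_bound_one hp h2 le_rfl
      have := sin_div_bound_two le_rfl h1
      linarith

lemma sin_scaled_bound {b ε a : ℝ} (hε : 0 < ε) (hεa : ε ≤ a) :
    |∫ t in ε..a, Real.sin (b * t) / t| ≤ 3 := by
  rcases lt_trichotomy b 0 with hb | hb | hb
  · have key : (∫ t in ε..a, Real.sin (b * t) / t) = - ∫ u in (-b)*ε..(-b)*a, Real.sin u / u := by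
      have h := intervalIntegral.integral_comp_mul_left (a := ε) (b := a)
        (fun u => Real.sin u / u) (neg_ne_zero.mpr hb.ne)
      rw [← intervalIntegral.integral_neg]
      have h2 : (∫ u in (-b)*ε..(-b)*a, -(Real.sin u / u)) = - ∫ u in (-b)*ε..(-b)*a, Real.sin u / u :=
        intervalIntegral.integral_neg
      rw [h2]
      have h3 : (∫ u in (-b)*ε..(-b)*a, Real.sin u / u) = (-b) * ∫ x in ε..a, Real.sin (-b * x) / (-b * x) := by
        rw [h, smul_eq_mul, ← mul_assoc, mul_inv_cancel₀ (neg_ne_zero.mpr hb.ne), one_mul]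
      rw [h3, ← intervalIntegral.integral_const_mul, ← intervalIntegral.integral_neg]
      apply intervalIntegral.integral_congr
      intro t _
      have : Real.sin (-b * t) = - Real.sin (b * t) := by rw [neg_mul, Real.sin_neg]
      simp only [this]
      rcases eq_or_ne t 0 with h0 | h0
      · simp [h0]
      · have hb' : b ≠ 0 := hb.ne
        field_simp
    rw [key, abs_neg]
    exact sin_div_bound (by nlinarith) (by nlinarith)
  · subst hb
    simp
  · have h := intervalIntegral.integral_comp_mul_left (a := ε) (b := a)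
        (fun u => Real.sin u / u) hb.ne'
    have h3 : (∫ u in b*ε..b*a, Real.sin u / u) = b * ∫ x in ε..a, Real.sin (b * x) / (b * x) := by
      rw [h, smul_eq_mul, ← mul_assoc, mul_inv_cancel₀ hb.ne', one_mul]
    have key : (∫ t in ε..a, Real.sin (b * t) / t) = ∫ u in b*ε..b*a, Real.sin u / u := by
      rw [h3, ← intervalIntegral.integral_const_mul]
      apply intervalIntegral.integral_congr
      intro t _
      rcases eq_or_ne t 0 with h0 | h0
      · simp [h0]
      · simp only []
        field_simp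
    rw [key]
    exact sin_div_bound (by positivity) (by nlinarith)

/-- the punctured symmetric interval -/
def annulus1 (ε a : ℝ) : Set ℝ := {t : ℝ | ε < |t| ∧ |t| < a}

lemma annulus1_eq {ε a : ℝ} (hε : 0 < ε) :
    annulus1 ε a = Ioo ε a ∪ Ioo (-a) (-ε) := by
  ext t
  simp only [annulus1, mem_ofPred_eq, mem_union, mem_Ioo]
  constructor
  · rintro ⟨h1, h2⟩
    rcases le_total 0 t with h | h
    · rw [abs_of_nonneg h] at *
      left; exact ⟨h1, h2⟩
    · rw [abs_of_nonpos h] at *
      right; constructor <;> linarith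
  · rintro (⟨h1, h2⟩ | ⟨h1, h2⟩)
    · rw [abs_of_pos (by linarith)]; exact ⟨h1, h2⟩
    · rw [abs_of_neg (by linarith)]; constructor <;> linarith

lemma annulus1_fold {ε a : ℝ} (hε : 0 < ε) (g : ℝ → ℂ)
    (hg1 : IntegrableOn g (Ioo ε a)) (hg2 : IntegrableOn (fun t => g (-t)) (Ioo ε a)) :
    ∫ t in annulus1 ε a, g t = ∫ t in Ioo ε a, (g t + g (-t)) := by
  have hneg : Ioo (-a) (-ε) = Neg.neg ⁻¹' (Ioo ε a) := by
    ext t; simp only [mem_Ioo, mem_preimage]; constructor <;> (rintro ⟨h1, h2⟩; constructor <;> linarith)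
  have hint2 : IntegrableOn g (Ioo (-a) (-ε)) := by
    have hm : MeasurePreserving (Neg.neg : ℝ → ℝ) volume volume := Measure.measurePreserving_neg volume
    have := (hm.integrableOn_comp_preimage (f := fun t => g (-t)) (s := Ioo ε a)
      (Homeomorph.neg ℝ).measurableEmbedding).mpr hg2
    rw [hneg]
    convert! this using 1
    ext t; simp
  rw [annulus1_eq hε, setIntegral_union _ measurableSet_Ioo hg1 hint2]
  · rw [integral_add hg1 hg2]
    congr 1
    have := (Measure.measurePreserving_neg (volume : Measure ℝ)).setIntegral_preimage_emb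
      (Homeomorph.neg ℝ).measurableEmbedding (fun t => g (-t)) (Ioo ε a)
    rw [hneg]
    rw [← this]
    simp
  · rw [Set.disjoint_left]
    rintro t ⟨h1, h2⟩ ⟨h3, h4⟩
    linarith

end Vale.Agent.P112
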