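import Vale.Agent.P112.Defs
import Vale.Agent.P112.LTwoB

namespace Vale.Agent.P112

open MeasureTheory Set Filter Topology
open scoped Real SchwartzMap FourierTransform ContDiff ENNReal NNReal

noncomputable section

/-- the folded principal value -/
def Psi (a : ℝ) (f : ℂ → ℂ) (x e : ℂ) : ℂ :=
  ∫ t in Ioo (0 : ℝ) a, (f (x - (t : ℂ) * e) - f (x + (t : ℂ) * e)) / (t : ℂ)

lemma schwartz_lipschitz (f : 𝓢(ℂ, ℂ)) : ∃ K : ℝ, 0 ≤ K ∧ ∀ x y, ‖f x - f y‖ ≤ K * ‖x - y‖ := by
  obtain ⟨K, hK⟩ := f.decay 0 1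
  refine ⟨K, hK.1.le, ?_⟩
  intro x y
  have h := Convex.norm_image_sub_le_of_norm_fderiv_le (𝕜 := ℝ) (f := f) (C := K) (s := univ)
    (x := y) (y := x)
    (fun z _ => f.differentiable.differentiableAt) (fun z _ => by
      have := hK.2 z
      simpa [norm_iteratedFDeriv_one] using this) convex_univ (mem_univ _) (mem_univ _)
  exact h

lemma bound_integrand (f : 𝓢(ℂ, ℂ)) (x e : ℂ) {K : ℝ} 
    (hK : ∀ x y, ‖f x - f y‖ ≤ K * ‖x - y‖) {t : ℝ} (ht : 0 < t) :
    ‖(f (x - (t : ℂ) * e) - f (x + (t : ℂ) * e)) / (t : ℂ)‖ ≤ 2 * K * ‖e‖ := by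
  rw [norm_div, Complex.norm_real, Real.norm_eq_abs, abs_of_pos ht, div_le_iff₀ ht]
  refine (hK _ _).trans (le_of_eq ?_)
  have : x - (t : ℂ) * e - (x + (t : ℂ) * e) = -(2 * t : ℝ) * e := by push_cast; ring
  rw [this, norm_mul, norm_neg, Complex.norm_real, Real.norm_eq_abs, abs_of_pos (by positivity)]
  ring

lemma tendsto_trunc (f : 𝓢(ℂ, ℂ)) {a : ℝ} (x e : ℂ) :
    Tendsto (fun ε : ℝ => ∫ t in annulus1 ε a, f (x - (t : ℂ) * e) / (t : ℂ)) (𝓝[>] 0)
      (𝓝 (Psi a f x e)) := by
  obtain ⟨K, hK0, hK⟩ := schwartz_lipschitz f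
  set G : ℝ → ℂ := fun t => (f (x - (t : ℂ) * e) - f (x + (t : ℂ) * e)) / (t : ℂ) with hG
  have hfold : ∀ ε : ℝ, 0 < ε → ∫ t in annulus1 ε a, f (x - (t : ℂ) * e) / (t : ℂ)
      = ∫ t in Ioo ε a, G t := by
    intro ε hε
    rw [annulus1_fold hε]
    · apply setIntegral_congr_fun measurableSet_Ioo
      intro t ht
      simp only [hG]
      push_cast
      rw [div_neg, sub_div]
      ring_nf
    · refine (ContinuousOn.integrableOn_compact (K := Icc ε a) isCompact_Icc ?_).mono_set Ioo_subset_Icc_self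
      apply ContinuousOn.div
      · exact (f.continuous.comp (by fun_prop)).continuousOn
      · exact Complex.continuous_ofReal.continuousOn
      · intro t ht
        exact_mod_cast (hε.trans_le ht.1).ne'
    · refine (ContinuousOn.integrableOn_compact (K := Icc ε a) isCompact_Icc ?_).mono_set Ioo_subset_Icc_self
      apply ContinuousOn.div
      · exact (f.continuous.comp (by fun_prop)).continuousOn
      · exact (Complex.continuous_ofReal.comp continuous_neg).continuousOn
      · intro t ht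
        have : -t ≠ 0 := neg_ne_zero.mpr (hε.trans_le ht.1).ne'
        exact_mod_cast this
  have hGm : Measurable G := by
    apply Measurable.div
    · apply Measurable.sub
      · exact f.continuous.measurable.comp (by fun_prop)
      · exact f.continuous.measurable.comp (by fun_prop)
    · fun_prop
  have hGi : IntegrableOn G (Ioo 0 a) := by
    apply Measure.integrableOn_of_bounded (M := 2 * K * ‖e‖) (by simp) hGm.aestronglyMeasurable
    apply (ae_restrict_iff' measurableSet_Ioo).mpr
    exact Eventually.of_forall (fun t ht => bound_integrand f x e hK ht.1)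
  have hlim : Tendsto (fun ε : ℝ => ∫ t, (Ioo ε a).indicator G t) (𝓝[>] 0)
      (𝓝 (∫ t, (Ioo 0 a).indicator G t)) := by
    apply tendsto_integral_filter_of_dominated_convergence (fun t => ‖(Ioo 0 a).indicator G t‖)
    · exact Eventually.of_forall (fun ε => (hGm.indicator measurableSet_Ioo).aestronglyMeasurable)
    · filter_upwards [self_mem_nhdsWithin] with ε hε
      apply Eventually.of_forall
      intro t
      simp only [indicator]
      split_ifs with h1 h2
      · exact le_rfl
      · exact absurd ⟨hε.trans h1.1, h1.2⟩ h2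
      · simp
      · simp
    · exact (hGi.integrable_indicator measurableSet_Ioo).norm
    · apply Eventually.of_forall
      intro t
      by_cases ht : t ∈ Ioo 0 a
      · apply tendsto_const_nhds.congr'
        have : ∀ᶠ ε in 𝓝[>] (0 : ℝ), ε < t := by
          apply eventually_nhdsWithin_of_eventually_nhds
          exact eventually_lt_nhds ht.1
        filter_upwards [this] with ε hε
        rw [indicator_of_mem ht, indicator_of_mem (show t ∈ Ioo ε a from ⟨hε, ht.2⟩)]
      · apply tendsto_const_nhds.congr'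
        filter_upwards [self_mem_nhdsWithin] with ε hε
        rw [indicator_of_notMem ht, indicator_of_notMem]
        rintro ⟨h1, h2⟩
        exact ht ⟨lt_trans hε h1, h2⟩
  rw [integral_indicator measurableSet_Ioo] at hlim
  apply hlim.congr'
  filter_upwards [self_mem_nhdsWithin] with ε hε
  rw [integral_indicator measurableSet_Ioo, hfold ε hε]

lemma Psi_measurable (a : ℝ) (f : 𝓢(ℂ, ℂ)) : Measurable (fun p : ℂ × ℂ => Psi a f p.1 p.2) := by
  have : StronglyMeasurable (fun q : (ℂ × ℂ) × ℝ =>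
      (f (q.1.1 - (q.2 : ℂ) * q.1.2) - f (q.1.1 + (q.2 : ℂ) * q.1.2)) / (q.2 : ℂ)) := by
    apply Measurable.stronglyMeasurable
    apply Measurable.div
    · apply Measurable.sub
      · exact f.continuous.measurable.comp (by fun_prop)
      · exact f.continuous.measurable.comp (by fun_prop)
    · fun_prop
  exact (this.integral_prod_right (ν := volume.restrict (Ioo (0:ℝ) a))).measurable

lemma lintegral_Psi_le {a : ℝ} (ha : 0 < a) (e : ℂ) (f : 𝓢(ℂ, ℂ)) :
    ∫⁻ x, ‖Psi a f x e‖ₑ ^ 2 ≤ 36 * ∫⁻ x, ‖f x‖ₑ ^ 2 := by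
  set s : ℕ → ℝ := fun n => a / (n + 2) with hs
  have hs0 : ∀ n, 0 < s n := fun n => by positivity
  have hsa : ∀ n, s n < a := fun n => by
    rw [hs]; simp only []
    apply div_lt_self ha
    have : (0:ℝ) ≤ n := by positivity
    linarith
  have hst : Tendsto s atTop (𝓝[>] 0) := by
    apply tendsto_nhdsWithin_of_tendsto_nhds_of_eventually_within
    · have h1 : Tendsto (fun n : ℕ => a / (((n + 2 : ℕ) : ℝ))) atTop (𝓝 0) :=
        (tendsto_const_div_atTop_nhds_zero_nat a).comp (tendsto_add_atTop_nat 2)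
      apply h1.congr
      intro n
      simp [hs]
    · exact Eventually.of_forall hs0
  have hpt : ∀ x, Tendsto (fun n => ‖opT (s n) a e f x‖ₑ ^ 2) atTop (𝓝 (‖Psi a f x e‖ₑ ^ 2)) := by
    intro x
    have h1 := (tendsto_trunc f (a := a) x e).comp hst
    have h2 : Tendsto (fun n => opT (s n) a e f x) atTop (𝓝 (Psi a f x e)) := by
      apply h1.congr
      intro n
      rw [opT_apply (hs0 n)]
      rfl
    exact (ENNReal.continuous_pow 2).continuousAt.tendsto.comp (h2.enorm)
  calc ∫⁻ x, ‖Psi a f x e‖ₑ ^ 2 = ∫⁻ x, liminf (fun n => ‖opT (s n) a e f x‖ₑ ^ 2) atTop := by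
        congr 1
        ext x
        exact (hpt x).liminf_eq.symm
    _ ≤ liminf (fun n => ∫⁻ x, ‖opT (s n) a e f x‖ₑ ^ 2) atTop := by
        apply lintegral_liminf_le
        intro n
        exact ((opT (s n) a e f).continuous.enorm.measurable).pow_const 2
    _ ≤ liminf (fun _ : ℕ => 36 * ∫⁻ x, ‖f x‖ₑ ^ 2) atTop := by
        exact Filter.liminf_le_liminf (Eventually.of_forall (fun n => lintegral_opT_le (hs0 n) (hsa n) e f))
    _ = 36 * ∫⁻ x, ‖f x‖ₑ ^ 2 := by simp

end

end Vale.Agent.P112
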